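/-
S0066 (row 47) — package R1a (owner: helper4).

Three facts about the base matrix `M` (statements verbatim from
`Crest.Agent.Helper5.S0066.Spec`):

* `pay_no_crown3`   : payload × payload contains no 3-crown;
* `mark_pay_nested` : marker rows × payload columns contain no 2-crown;
* `pay_mark_nested` : payload rows × marker columns contain no 2-crown.
-/
import Crest.Agent.Helper5.S0066.Defs

set_option autoImplicit false

namespace Crest.Agent.Helper4.S0066

open Crest.Agent.Helper5.S0066 Line

variable {h : ℕ}

/-- Nested classes stay nested at every higher level. -/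
theorem nest_up {p q : Line h} (hn : nest p q = true) {m : ℕ} (hm : max p.lvl q.lvl ≤ m) :
    p.pos / 2 ^ m = q.pos / 2 ^ m := by
  have h0 : p.pos / 2 ^ max p.lvl q.lvl = q.pos / 2 ^ max p.lvl q.lvl := by
    simpa [nest] using hn
  obtain ⟨d, rfl⟩ := Nat.exists_eq_add_of_le hm
  rw [pow_add, ← Nat.div_div_eq_div_mul, ← Nat.div_div_eq_div_mul, h0]

/-- If the classes agree at the level `max`, the lines are nested. -/
theorem nest_of_eq {p q : Line h} (he : p.pos / 2 ^ max p.lvl q.lvl = q.pos / 2 ^ max p.lvl q.lvl) :
    nest p q = true := by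
  simpa [nest] using he

/-- A payload line which is not adjacent (as a row) to some payload column is a tree line. -/
theorem isTree_of_row {p q : Line h} (hp : p.isPay = true) (hq : q.isPay = true)
    (hM : M p q = false) : p.isTree = true := by
  cases p with
  | Y i => rw [M_Y_pay hq] at hM; exact absurd hM (by simp)
  | leaf x => rfl
  | core j k y => rfl
  | Z i => simp [isPay] at hp
  | crown a i => simp [isPay] at hp
  | thr g θ i => simp [isPay] at hp

/-- A payload line which is not adjacent (as a column) to some payload row is a tree line. -/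
theorem isTree_of_col {p q : Line h} (hp : p.isPay = true) (hq : q.isPay = true)
    (hM : M p q = false) : q.isTree = true := by
  cases q with
  | Y i => rw [M_pay_Y hp] at hM; exact absurd hM (by simp)
  | leaf x => rfl
  | core j k y => rfl
  | Z i => simp [isPay] at hq
  | crown a i => simp [isPay] at hq
  | thr g θ i => simp [isPay] at hq

/-- **R1a.** Payload × payload contains no 3-crown. -/
theorem pay_no_crown3 (R C : Fin 3 → Line h) (hR : ∀ a, (R a).isPay = true)
    (hC : ∀ a, (C a).isPay = true) (hM : ∀ a b, M (R a) (C b) = decide (a ≠ b)) : False := by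
  have hdiag : ∀ a, M (R a) (C a) = false := fun a => by simpa using hM a a
  have hRt : ∀ a, (R a).isTree = true := fun a => isTree_of_row (hR a) (hC a) (hdiag a)
  have hCt : ∀ a, (C a).isTree = true := fun a => isTree_of_col (hR a) (hC a) (hdiag a)
  have hnest : ∀ a b, nest (R a) (C b) = decide (a ≠ b) := fun a b => by
    rw [← M_tree_tree (hRt a) (hCt b)]; exact hM a b
  -- the maximal level among the six lines
  obtain ⟨J, hJR, hJC, hJ⟩ : ∃ J : ℕ, (∀ a, (R a).lvl ≤ J) ∧ (∀ a, (C a).lvl ≤ J) ∧
      ∃ a, (R a).lvl = J ∨ (C a).lvl = J := by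
    refine ⟨max (max (max (R 0).lvl (R 1).lvl) (R 2).lvl) (max (max (C 0).lvl (C 1).lvl) (C 2).lvl),
      ?_, ?_, ?_⟩
    · intro a; fin_cases a <;> simp
    · intro a; fin_cases a <;> simp
    · by_contra hcon
      simp only [not_exists, not_or] at hcon
      have h0 := hcon 0
      have h1 := hcon 1
      have h2 := hcon 2
      omega
  have hoff : ∀ a b, a ≠ b → (R a).pos / 2 ^ J = (C b).pos / 2 ^ J := fun a b hab =>
    nest_up (by rw [hnest a b]; simpa using hab) (max_le (hJR a) (hJC b))
  -- all six classes at level `J` coincide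
  have e01 := hoff 0 1 (by decide)
  have e02 := hoff 0 2 (by decide)
  have e10 := hoff 1 0 (by decide)
  have e12 := hoff 1 2 (by decide)
  have e20 := hoff 2 0 (by decide)
  have e21 := hoff 2 1 (by decide)
  have hall : ∀ a, (R a).pos / 2 ^ J = (C a).pos / 2 ^ J := by
    intro a
    fin_cases a
    · show (R 0).pos / 2 ^ J = (C 0).pos / 2 ^ J
      omega
    · show (R 1).pos / 2 ^ J = (C 1).pos / 2 ^ J
      omega
    · show (R 2).pos / 2 ^ J = (C 2).pos / 2 ^ J
      omega
  obtain ⟨a, ha⟩ := hJ
  have hmax : max (R a).lvl (C a).lvl = J := by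
    have h1 := hJR a
    have h2 := hJC a
    rcases ha with ha | ha <;> omega
  have : nest (R a) (C a) = true := nest_of_eq (by rw [hmax]; exact hall a)
  rw [hnest a a] at this
  simp at this

/-- **R1a.** Marker rows × payload columns contain no 2-crown (neighbourhoods are nested). -/
theorem mark_pay_nested (R C : Fin 2 → Line h) (hR : ∀ a, (R a).isPay = false)
    (hC : ∀ a, (C a).isPay = true) (hM : ∀ a b, M (R a) (C b) = decide (a ≠ b)) : False := by
  have h00 : M (R 0) (C 0) = false := by simpa using hM 0 0
  have h01 : M (R 0) (C 1) = true := by simpa using hM 0 1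
  have h10 : M (R 1) (C 0) = true := by simpa using hM 1 0
  have h11 : M (R 1) (C 1) = false := by simpa using hM 1 1
  have hR0 := hR 0
  have hR1 := hR 1
  have hC0 := hC 0
  have hC1 := hC 1
  generalize R 0 = r0 at *
  generalize R 1 = r1 at *
  generalize C 0 = c0 at *
  generalize C 1 = c1 at *
  cases r0 with
  | Y i => simp [isPay] at hR0
  | leaf x => simp [isPay] at hR0
  | core j k y => simp [isPay] at hR0
  | Z i => rw [M_Z_pay hC0] at h00; simp at h00
  | crown a i => rw [M_crown_pay hC1] at h01; simp at h01
  | thr g θ i =>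
    cases r1 with
    | Y i => simp [isPay] at hR1
    | leaf x => simp [isPay] at hR1
    | core j k y => simp [isPay] at hR1
    | Z i => rw [M_Z_pay hC1] at h11; simp at h11
    | crown a i => rw [M_crown_pay hC0] at h10; simp at h10
    | thr g' θ' i' =>
      rw [M_thr_pay hC0] at h00 h10
      rw [M_thr_pay hC1] at h01 h11
      simp only [decide_eq_true_eq, decide_eq_false_iff_not, not_le] at h00 h01 h10 h11
      omega

/-- **R1a.** Payload rows × marker columns contain no 2-crown. -/
theorem pay_mark_nested (R C : Fin 2 → Line h) (hR : ∀ a, (R a).isPay = true)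
    (hC : ∀ a, (C a).isPay = false) (hM : ∀ a b, M (R a) (C b) = decide (a ≠ b)) : False := by
  have h00 : M (R 0) (C 0) = false := by simpa using hM 0 0
  have h01 : M (R 0) (C 1) = true := by simpa using hM 0 1
  have h10 : M (R 1) (C 0) = true := by simpa using hM 1 0
  have h11 : M (R 1) (C 1) = false := by simpa using hM 1 1
  have hR0 := hR 0
  have hR1 := hR 1
  have hC0 := hC 0
  have hC1 := hC 1
  generalize R 0 = r0 at *
  generalize R 1 = r1 at *
  generalize C 0 = c0 at *
  generalize C 1 = c1 at *
  cases c0 with
  | Y i => simp [isPay] at hC0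
  | leaf x => simp [isPay] at hC0
  | core j k y => simp [isPay] at hC0
  | Z i => rw [M_pay_Z hR0] at h00; simp at h00
  | crown a i => rw [M_pay_crown hR1] at h10; simp at h10
  | thr g θ i =>
    cases c1 with
    | Y i => simp [isPay] at hC1
    | leaf x => simp [isPay] at hC1
    | core j k y => simp [isPay] at hC1
    | Z i => rw [M_pay_Z hR1] at h11; simp at h11
    | crown a i => rw [M_pay_crown hR0] at h01; simp at h01
    | thr g' θ' i' =>
      rw [M_pay_thr hR0] at h00 h01
      rw [M_pay_thr hR1] at h10 h11
      simp only [decide_eq_true_eq, decide_eq_false_iff_not, not_le] at h00 h01 h10 h11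
      omega

end Crest.Agent.Helper4.S0066
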